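import Mathlib
import Crest.Agent.Helper19.S0423ChainF

/-!
S0423 (row 280), module M1a/M1b: the `N`-dimensional integral over the positive orthant against
`exp (-(x₁ + ⋯ + x_N))` of `f (t + ∑ aᵢ xᵢ)` equals the iterated one-dimensional operator
`chainF f [a₁, …, a_N] t` (peel one coordinate at a time with Fubini).
-/

set_option autoImplicit false

open MeasureTheory Set

namespace Crest.Agent.Helper24

open Crest.Agent.Helper19

/-- The exponential measure's carrier: Lebesgue restricted to the positive half line. -/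
noncomputable abbrev nu : Measure ℝ := (volume : Measure ℝ).restrict (Ioi (0:ℝ))

theorem integrable_exp_neg_nu : Integrable (fun y : ℝ => Real.exp (-y)) nu :=
  integrableOn_exp_neg_Ioi 0

/-- `exp (-Σ x i)` is integrable on the product measure. -/
theorem integrable_exp_neg_sum (N : ℕ) :
    Integrable (fun x : Fin N → ℝ => Real.exp (-∑ i, x i)) (Measure.pi fun _ : Fin N => nu) := by
  have h : ∀ i : Fin N, Integrable (fun y : ℝ => Real.exp (-y)) nu := fun _ => integrable_exp_neg_nu
  have := Integrable.fintype_prod (μ := fun _ : Fin N => nu) (f := fun _ y => Real.exp (-y)) h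
  refine this.congr ?_
  filter_upwards with x
  rw [← Real.exp_sum, Finset.sum_neg_distrib]

theorem integrable_main (f : ℝ → ℝ) (hf : Measurable f) (hb : ∀ y, |f y| ≤ 1) (N : ℕ)
    (a : Fin N → ℝ) (t : ℝ) :
    Integrable (fun x : Fin N → ℝ => f (t + ∑ i, a i * x i) * Real.exp (-∑ i, x i))
      (Measure.pi fun _ : Fin N => nu) := by
  refine (integrable_exp_neg_sum N).mono' ?_ ?_
  · refine Measurable.aestronglyMeasurable ?_
    refine (hf.comp ?_).mul ?_
    · fun_prop
    · fun_prop
  · filter_upwards with x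
    rw [norm_mul, Real.norm_eq_abs, Real.norm_eq_abs, abs_of_pos (Real.exp_pos _)]
    exact mul_le_of_le_one_left (Real.exp_pos _).le (hb _)

theorem peel (f : ℝ → ℝ) (hf : Measurable f) (hb : ∀ y, |f y| ≤ 1) (N : ℕ)
    (a : Fin (N + 1) → ℝ) (t : ℝ) :
    ∫ x, f (t + ∑ i, a i * x i) * Real.exp (-∑ i, x i) ∂(Measure.pi fun _ : Fin (N + 1) => nu)
      = ∫ y, (∫ z, f ((t + a 0 * y) + ∑ j : Fin N, a j.succ * z j) * Real.exp (-∑ j, z j)
          ∂(Measure.pi fun _ : Fin N => nu)) * Real.exp (-y) ∂nu := by
  have mp := (measurePreserving_piFinSuccAbove (fun _ : Fin (N + 1) => nu) 0).symm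
  have hint := integrable_main f hf hb (N + 1) a t
  rw [← mp.integrable_comp_emb (MeasurableEquiv.measurableEmbedding _)] at hint
  rw [← mp.integral_comp']
  simp only [MeasurableEquiv.piFinSuccAbove_symm_apply, Fin.insertNthEquiv,
    Fin.sum_univ_succ, Fin.insertNth_zero, Equiv.coe_fn_mk, Fin.cons_succ, Fin.cons_zero,
    Function.comp_def, cast_eq, Fin.zero_succAbove] at hint ⊢
  rw [integral_prod _ hint]
  refine integral_congr_ae ?_
  filter_upwards with y
  rw [← integral_mul_const]
  refine integral_congr_ae ?_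
  filter_upwards with z
  rw [neg_add, Real.exp_add, add_assoc]
  ring

/-- The `N`-dimensional integral as an iterated one-dimensional one. -/
theorem integral_pi_nu_eq_chainF (f : ℝ → ℝ) (hf : Measurable f) (hb : ∀ y, |f y| ≤ 1) :
    ∀ (N : ℕ) (a : Fin N → ℝ) (t : ℝ),
      ∫ x, f (t + ∑ i, a i * x i) * Real.exp (-∑ i, x i) ∂(Measure.pi fun _ : Fin N => nu)
        = chainF f (List.ofFn a) t := by
  intro N
  induction N with
  | zero =>
    intro a t
    simp [chainF, measureReal_def]
  | succ N ih =>
    intro a t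
    rw [peel f hf hb N a t, List.ofFn_succ]
    show _ = R (a 0) (chainF f (List.ofFn fun i => a i.succ)) t
    unfold R
    refine integral_congr_ae ?_
    filter_upwards with y
    rw [ih (fun j => a j.succ) (t + a 0 * y)]

theorem integral_pi_eq_chainF (f : ℝ → ℝ) (hf : Measurable f) (hb : ∀ y, |f y| ≤ 1)
    (N : ℕ) (a : Fin N → ℝ) (t : ℝ) :
    (∫ x in Set.pi Set.univ (fun _ : Fin N => Set.Ioi (0 : ℝ)),
        f (t + ∑ i, a i * x i) * Real.exp (-∑ i, x i)) = chainF f (List.ofFn a) t := by
  rw [← integral_pi_nu_eq_chainF f hf hb N a t, volume_pi, Measure.restrict_pi_pi]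

end Crest.Agent.Helper24
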