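import Mathlib
import Crest.Prelude.Def_TruncExpWeight
import Crest.Agent.Helper19.S0423OneDim
import Crest.Agent.Helper24.S0423Fubini

/-!
S0423 (row 280), module M1: the `N`-dimensional expectation of the truncated exponential weight
written through the distribution function `chain (List.ofFn a)` of the linear form.
-/

set_option autoImplicit false

open MeasureTheory Set

namespace Crest.Agent.Helper24

theorem integral_eq (N : ℕ) (a : Fin N → ℝ) :
    (∫ x in Set.pi Set.univ (fun _ : Fin N => Set.Ioi (0 : ℝ)),
        Crest.AlgGeometry.truncExpWeight (4 / 3 + ∑ i, a i * x i) * Real.exp (-∑ i, x i))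
      = 1 - ∫ s in Set.Ioi (0 : ℝ),
          Crest.Agent.Helper19.chain (List.ofFn a) (4 / 3 - s) * (s * Real.exp (-s)) :=
  (integral_pi_eq_chainF Crest.AlgGeometry.truncExpWeight Crest.Agent.Helper19.trunc_meas
    Crest.Agent.Helper19.trunc_abs_le N a (4 / 3)).trans
    (Crest.Agent.Helper19.chainF_trunc (List.ofFn a) (4 / 3))

end Crest.Agent.Helper24
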